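import Vale.Agent.H88.E0.Main
import Vale.Agent.H88.AffHomeo
import Vale.Agent.H88.LinSearch
import Vale.Agent.H88.BaireCode

/-!
# Isometries of Cantor space: basic notions

`Agree n X Y`: the sets `X`, `Y` have the same first `n` values.  `app s X`: the finite string
`s` followed by `X`.  `xr`: pointwise xor.  `ins l X`: `X` with `false` inserted at position `l`.
Elementary computability facts and Turing reductions for these operations.
-/

namespace Vale.Agent.H88

/-- Agreement of the first `n` values. -/
def Agree (n : ℕ) (X Y : ℕ → Bool) : Prop := ∀ i, i < n → X i = Y i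

theorem Agree.refl (n : ℕ) (X : ℕ → Bool) : Agree n X X := fun _ _ => rfl

theorem Agree.symm {n : ℕ} {X Y : ℕ → Bool} (h : Agree n X Y) : Agree n Y X :=
  fun i hi => (h i hi).symm

theorem Agree.trans {n : ℕ} {X Y Z : ℕ → Bool} (h : Agree n X Y) (h' : Agree n Y Z) :
    Agree n X Z := fun i hi => (h i hi).trans (h' i hi)

theorem Agree.mono {n m : ℕ} {X Y : ℕ → Bool} (h : Agree n X Y) (hm : m ≤ n) : Agree m X Y :=
  fun i hi => h i (lt_of_lt_of_le hi hm)

/-- The finite string `s` followed by `X`. -/
def app (s : List Bool) (X : ℕ → Bool) : ℕ → Bool :=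
  fun i => if i < s.length then s.getD i false else X (i - s.length)

/-- Pointwise xor. -/
def xr (X Y : ℕ → Bool) : ℕ → Bool := fun i => xor (X i) (Y i)

/-- Insert the value `false` at position `l`. -/
def ins (l : ℕ) (X : ℕ → Bool) : ℕ → Bool :=
  fun i => if i < l then X i else if i = l then false else X (i - 1)

theorem iso_pre_congr {N : ℕ} {X Y : ℕ → Bool} (h : Agree N X Y) : pre X N = pre Y N := by
  unfold pre
  exact List.map_congr_left fun a ha => h a (List.mem_range.mp ha)

theorem iso_agree_of_pre {N : ℕ} {X Y : ℕ → Bool} (h : pre X N = pre Y N) : Agree N X Y := by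
  intro i hi
  have h1 := ext_pre X N i (by rw [length_pre]; exact hi)
  have h2 := ext_pre Y N i (by rw [length_pre]; exact hi)
  rw [h1, h2, h]

theorem iso_agree_app (s : List Bool) (X : ℕ → Bool) : Agree s.length (app s X) (pad s) := by
  intro i hi
  simp [app, pad, hi]

theorem iso_agree_pad_pre (X : ℕ → Bool) (N : ℕ) : Agree N (pad (pre X N)) X := by
  intro i hi
  exact (ext_pre X N i (by rw [length_pre]; exact hi)).symm

theorem iso_agree_xr {n : ℕ} {X X' Y Y' : ℕ → Bool} (h : Agree n X X') (h' : Agree n Y Y') :
    Agree n (xr X Y) (xr X' Y') := by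
  intro i hi
  simp [xr, h i hi, h' i hi]

theorem iso_xr_xr (X Y : ℕ → Bool) : xr (xr X Y) Y = X := by
  funext i
  simp [xr]

theorem iso_app_shift {η : List Bool} {B : ℕ → Bool} (h : Ext η B) :
    app η (fun i => B (i + η.length)) = B := by
  funext i
  unfold app
  split_ifs with hi
  · exact (h i hi).symm
  · show B (i - η.length + η.length) = B i
    rw [Nat.sub_add_cancel (Nat.le_of_not_lt hi)]

theorem iso_pre_get {X : ℕ → Bool} {K j : ℕ} {v : Bool} (h : (pre X K)[j]? = some v) :
    v = X j := by
  unfold pre at h
  rw [List.getElem?_map] at h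
  by_cases hj : j < K
  · rw [List.getElem?_range hj] at h
    simpa using h.symm
  · rw [List.getElem?_eq_none (by simpa using hj)] at h
    simp at h

theorem iso_pre_get_isSome (X : ℕ → Bool) {K j : ℕ} (hj : j < K) : ((pre X K)[j]?).isSome := by
  rw [List.getElem?_eq_getElem (by rw [length_pre]; exact hj)]
  rfl

/-- The list of the first `K a` values of a computable family is computable. -/
theorem iso_computable_map_range {α : Type*} [Primcodable α] {g : α × ℕ → Bool}
    (hg : Computable g) {K : α → ℕ} (hK : Computable K) :
    Computable (fun a => (List.range (K a)).map (fun n => g (a, n))) := by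
  have hstep : Computable₂ (fun (a : α) (x : ℕ × List Bool) => x.2 ++ [g (a, x.1)]) :=
    Computable.list_append.comp (Computable.snd.comp Computable.snd)
      (Computable.list_cons.comp
        (hg.comp (Computable.pair Computable.fst (Computable.fst.comp Computable.snd)))
        (Computable.const []))
  have h := Computable.nat_rec hK (Computable.const ([] : List Bool)) hstep
  refine h.of_eq fun a => ?_
  have key : ∀ N, Nat.rec (motive := fun _ => List Bool) [] (fun y IH => IH ++ [g (a, y)]) N =
      (List.range N).map (fun n => g (a, n)) := by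
    intro N
    induction N with
    | zero => rfl
    | succ N ih =>
      change Nat.rec (motive := fun _ => List Bool) [] (fun y IH => IH ++ [g (a, y)]) N ++
        [g (a, N)] = _
      rw [ih, List.range_succ, List.map_append]
      rfl
  exact key (K a)

theorem iso_computable_pre {R : ℕ → Bool} (hR : Computable R) :
    Computable (fun N : ℕ => pre R N) :=
  iso_computable_map_range (g := fun p : ℕ × ℕ => R p.2) (hR.comp Computable.snd)
    (K := fun N : ℕ => N) Computable.id

theorem iso_computable_pad (s : List Bool) : Computable (pad s) :=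
  ((Primrec.list_getD false).comp (Primrec.const s) Primrec.id).to_comp

theorem iso_computable_xr {X Y : ℕ → Bool} (hX : Computable X) (hY : Computable Y) :
    Computable (xr X Y) :=
  (Primrec.dom_bool₂ xor).to_comp.comp hX hY

theorem iso_app_le (s : List Bool) (X : ℕ → Bool) :
    TuringReducible (chi (app s X)) (chi X) := by
  refine turingReducible_of_test
    (t := fun n _ ξ => if n < s.length then some (s.getD n false) else ξ[n - s.length]?)
    ?_ ?_ ?_
  · refine (Primrec.ite (Primrec.nat_lt.comp Primrec.fst (Primrec.const s.length))
      (Primrec.option_some.comp ((Primrec.list_getD false).comp (Primrec.const s) Primrec.fst))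
      (Primrec.list_getElem?.comp (Primrec.snd.comp Primrec.snd)
        (Primrec.nat_sub.comp Primrec.fst (Primrec.const s.length)))).to_comp
  · intro n q K v h
    unfold app
    split_ifs at h ⊢ with hn
    · exact (Option.some.inj h).symm
    · exact iso_pre_get h
  · intro n
    refine ⟨0, n + 1, ?_⟩
    split_ifs with hn
    · rfl
    · exact iso_pre_get_isSome X (by omega)

theorem iso_le_app (s : List Bool) (X : ℕ → Bool) :
    TuringReducible (chi X) (chi (app s X)) := by
  refine turingReducible_of_test (t := fun n _ ξ => ξ[n + s.length]?) ?_ ?_ ?_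
  · exact (Primrec.list_getElem?.comp (Primrec.snd.comp Primrec.snd)
      (Primrec.nat_add.comp Primrec.fst (Primrec.const s.length))).to_comp
  · intro n q K v h
    have h1 := iso_pre_get h
    rw [h1]
    unfold app
    rw [if_neg (by omega), Nat.add_sub_cancel]
  · intro n
    exact ⟨0, n + s.length + 1, iso_pre_get_isSome _ (by omega)⟩

theorem iso_ins_le (l : ℕ) (X : ℕ → Bool) :
    TuringReducible (chi (ins l X)) (chi X) := by
  refine turingReducible_of_test
    (t := fun n _ ξ => if n < l then ξ[n]? else if n = l then some false else ξ[n - 1]?)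
    ?_ ?_ ?_
  · refine (Primrec.ite (Primrec.nat_lt.comp Primrec.fst (Primrec.const l))
      (Primrec.list_getElem?.comp (Primrec.snd.comp Primrec.snd) Primrec.fst)
      (Primrec.ite (Primrec.eq.comp Primrec.fst (Primrec.const l))
        (Primrec.const (some false))
        (Primrec.list_getElem?.comp (Primrec.snd.comp Primrec.snd)
          (Primrec.nat_sub.comp Primrec.fst (Primrec.const 1))))).to_comp
  · intro n q K v h
    unfold ins
    split_ifs at h ⊢ with h1 h2
    · exact iso_pre_get h
    · exact (Option.some.inj h).symm
    · exact iso_pre_get h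
  · intro n
    refine ⟨0, n + 1, ?_⟩
    split_ifs with h1 h2
    · exact iso_pre_get_isSome X (by omega)
    · rfl
    · exact iso_pre_get_isSome X (by omega)

theorem iso_agree_ins {n l : ℕ} {U U' : ℕ → Bool} (h : Agree (max n l) U U') :
    Agree (max n l + 1) (ins l U) (ins l U') := by
  intro i hi
  unfold ins
  split_ifs with h1 h2
  · exact h i (lt_of_lt_of_le h1 (le_max_right n l))
  · rfl
  · exact h (i - 1) (by omega)

/-- Every computable set is reducible to every set. -/
theorem iso_le_of_computable {C : ℕ → Bool} (hC : Computable C) (X : ℕ → Bool) :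
    TuringReducible (chi C) (chi X) := by
  apply RecursiveIn.iff_nat.mpr
  exact search_of_computable ((Primrec.dom_bool Bool.toNat).to_comp.comp hC)

end Vale.Agent.H88
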