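import Vale.Agent.H88.Iso.Maps

/-!
# Isometries of Cantor space induce only the trivial automorphism of the Turing degrees

Main result (`iso_main`): a bijection of Cantor space that preserves agreement of initial
segments in both directions (an isometry of the standard ultrametric, i.e. the boundary action
of an automorphism of the binary tree) and preserves Turing reducibility in both directions
maps every set to a Turing equivalent set.

Proof: the transported group law is computable on finite strings below a pair of finite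
strings (Baire category; the modulus of continuity is known); with a computable translation
back this makes all nodes of one level below some node equivalent up to computable maps; the
conjugate of an insertion links two consecutive levels; so below some node `a` the two maps
`a s ↦ a 0 s`, `a s ↦ a 1 s` are conjugated to computable maps, and a recursion over the
finite string computes the action below `a`.
-/

namespace Vale.Agent.H88

theorem iso_app_nil (Y : ℕ → Bool) : app [] Y = Y := by
  funext i
  simp [app]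

theorem iso_app_cons (a : List Bool) (x : Bool) (s : List Bool) (Y : ℕ → Bool) :
    app a (app (x :: s) Y) = app (a ++ [x]) (app s Y) := by
  funext i
  unfold app
  simp only [List.length_append, List.length_cons, List.length_nil, Nat.zero_add]
  rcases lt_trichotomy i a.length with h1 | h1 | h1
  · rw [if_pos h1, if_pos (show i < a.length + 1 by omega), List.getD_append _ _ _ _ h1]
  · subst h1
    rw [if_neg (lt_irrefl _), Nat.sub_self, if_pos (show 0 < s.length + 1 by omega),
      if_pos (show a.length < a.length + 1 by omega), List.getD_cons_zero,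
      List.getD_append_right _ _ _ _ (le_refl _), Nat.sub_self, List.getD_cons_zero]
  · obtain ⟨k, rfl⟩ : ∃ k, i = a.length + 1 + k := ⟨i - a.length - 1, by omega⟩
    have e1 : a.length + 1 + k - a.length = k + 1 := by omega
    have e2 : a.length + 1 + k - (a.length + 1) = k := by omega
    rw [if_neg (show ¬ a.length + 1 + k < a.length by omega),
      if_neg (show ¬ a.length + 1 + k < a.length + 1 by omega), e1, e2]
    by_cases h3 : k < s.length
    · rw [if_pos (show k + 1 < s.length + 1 by omega), if_pos h3, List.getD_cons_succ]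
    · rw [if_neg (show ¬ k + 1 < s.length + 1 by omega), if_neg h3]
      congr 1
      omega

/-- The recursion over a reversed finite string. -/
def isoG (init : List Bool) (c₀ c₁ : List Bool → List Bool) (r : List Bool) : ℕ → List Bool
  | 0 => init
  | j + 1 => bif r.getD j false then c₁ (isoG init c₀ c₁ r j) else c₀ (isoG init c₀ c₁ r j)

theorem isoG_computable (init : List Bool) {c₀ c₁ : List Bool → List Bool}
    (hc₀ : Computable c₀) (hc₁ : Computable c₁) :
    Computable (fun r : List Bool => isoG init c₀ c₁ r r.length) := by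
  have hh : Computable₂ (fun (r : List Bool) (x : ℕ × List Bool) =>
      bif r.getD x.1 false then c₁ x.2 else c₀ x.2) :=
    Computable.cond
      (((Primrec.list_getD false).comp Primrec.fst (Primrec.fst.comp Primrec.snd)).to_comp)
      (hc₁.comp (Computable.snd.comp Computable.snd))
      (hc₀.comp (Computable.snd.comp Computable.snd))
  have h := Computable.nat_rec Computable.list_length (Computable.const init) hh
  refine h.of_eq fun r => ?_
  have key : ∀ j, Nat.rec (motive := fun _ => List Bool) init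
      (fun y IH => bif r.getD y false then c₁ IH else c₀ IH) j = isoG init c₀ c₁ r j := by
    intro j
    induction j with
    | zero => rfl
    | succ j ih =>
      show (bif r.getD j false then c₁ _ else c₀ _) = _
      rw [ih]
      rfl
  exact key r.length

theorem iso_app_cons' (x : Bool) (s : List Bool) (Y : ℕ → Bool) :
    app (x :: s) Y = app [x] (app s Y) := by
  have h := iso_app_cons [] x s Y
  rw [iso_app_nil] at h
  exact h

theorem iso_fold_spec (Ψ : (ℕ → Bool) → (ℕ → Bool)) (n₂ : ℕ) (c₀ c₁ : List Bool → List Bool)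
    (hΨ : ∀ N Y Y', Agree N Y Y' → Agree (n₂ + N) (Ψ Y) (Ψ Y'))
    (hs₀ : ∀ (Y : ℕ → Bool) (k : ℕ),
      pre (Ψ (app [false] Y)) (n₂ + 1 + k) = c₀ (pre (Ψ Y) (n₂ + k)))
    (hs₁ : ∀ (Y : ℕ → Bool) (k : ℕ),
      pre (Ψ (app [true] Y)) (n₂ + 1 + k) = c₁ (pre (Ψ Y) (n₂ + k)))
    (r : List Bool) (Y : ℕ → Bool) (j : ℕ) : j ≤ r.length →
      isoG (pre (Ψ (fun _ => false)) n₂) c₀ c₁ r j =
        pre (Ψ (app (r.take j).reverse Y)) (n₂ + j) := by
  induction j with
  | zero =>
    intro _
    show pre (Ψ (fun _ => false)) n₂ = _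
    rw [List.take_zero, List.reverse_nil, iso_app_nil, Nat.add_zero]
    exact iso_pre_congr (hΨ 0 _ _ (fun i hi => absurd hi (Nat.not_lt_zero i)))
  | succ j ih =>
    intro hj
    have hj' : j < r.length := hj
    have ih' := ih (Nat.le_of_lt hj')
    have htake : (r.take (j + 1)).reverse = r.getD j false :: (r.take j).reverse := by
      rw [List.take_add_one, List.reverse_append, List.getElem?_eq_getElem hj',
        List.getD_eq_getElem _ _ hj']
      rfl
    have e : n₂ + (j + 1) = n₂ + 1 + j := by omega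
    rw [htake, iso_app_cons', e]
    show (bif r.getD j false then c₁ (isoG _ c₀ c₁ r j) else c₀ (isoG _ c₀ c₁ r j)) = _
    rw [ih']
    cases r.getD j false
    · exact (hs₀ _ j).symm
    · exact (hs₁ _ j).symm

theorem iso_fold_test (G : List Bool → List Bool) (hG : Computable G) (n₂ : ℕ) :
    Computable (fun p : ℕ × ℕ × List Bool =>
      if p.1 < n₂ + p.2.2.length then some ((G p.2.2).getD p.1 false) else none) := by
  have hT1 : Primrec (fun x : ℕ × ℕ × Bool => if x.1 < n₂ + x.2.1 then some x.2.2 else none) :=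
    Primrec.ite (Primrec.nat_lt.comp Primrec.fst
      (Primrec.nat_add.comp (Primrec.const n₂) (Primrec.fst.comp Primrec.snd)))
      (Primrec.option_some.comp (Primrec.snd.comp Primrec.snd)) (Primrec.const none)
  have hval : Computable (fun p : ℕ × ℕ × List Bool => (G p.2.2).getD p.1 false) :=
    ((Primrec.list_getD false).to_comp).comp
      (hG.comp (Computable.snd.comp Computable.snd)) Computable.fst
  have h := hT1.to_comp.comp (Computable.pair (Computable.fst (α := ℕ) (β := ℕ × List Bool))
    (Computable.pair (Computable.list_length.comp (Computable.snd.comp Computable.snd)) hval))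
  exact h.of_eq fun p => rfl

/-- If `Ψ` maps sets agreeing up to `N` to sets agreeing up to `n₂ + N`, and prepending a
value is conjugated by `Ψ` to computable maps on finite strings, then `Ψ Y` is computable
from `Y`. -/
theorem iso_fold (Ψ : (ℕ → Bool) → (ℕ → Bool)) (n₂ : ℕ) (c₀ c₁ : List Bool → List Bool)
    (hc₀ : Computable c₀) (hc₁ : Computable c₁)
    (hΨ : ∀ N Y Y', Agree N Y Y' → Agree (n₂ + N) (Ψ Y) (Ψ Y'))
    (hs₀ : ∀ (Y : ℕ → Bool) (k : ℕ),
      pre (Ψ (app [false] Y)) (n₂ + 1 + k) = c₀ (pre (Ψ Y) (n₂ + k)))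
    (hs₁ : ∀ (Y : ℕ → Bool) (k : ℕ),
      pre (Ψ (app [true] Y)) (n₂ + 1 + k) = c₁ (pre (Ψ Y) (n₂ + k)))
    (X : ℕ → Bool) : TuringReducible (chi (Ψ X)) (chi X) := by
  obtain ⟨G, hGdef⟩ : ∃ G : List Bool → List Bool, G = fun ξ =>
      isoG (pre (Ψ (fun _ => false)) n₂) c₀ c₁ ξ.reverse ξ.reverse.length := ⟨_, rfl⟩
  have hG : Computable G := by
    rw [hGdef]
    exact (isoG_computable _ hc₀ hc₁).comp Computable.list_reverse
  have hGspec : ∀ K, G (pre X K) = pre (Ψ (app (pre X K) (fun _ => false))) (n₂ + K) := by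
    intro K
    rw [hGdef]
    have h1 := iso_fold_spec Ψ n₂ c₀ c₁ hΨ hs₀ hs₁ (pre X K).reverse (fun _ => false)
      (pre X K).reverse.length (le_refl _)
    rw [List.take_length, List.reverse_reverse, List.length_reverse, length_pre] at h1
    show isoG (pre (Ψ (fun _ => false)) n₂) c₀ c₁ (pre X K).reverse (pre X K).reverse.length = _
    rw [← h1, List.length_reverse, length_pre]
  refine turingReducible_of_test
    (t := fun n _ ξ => if n < n₂ + ξ.length then some ((G ξ).getD n false) else none)
    (iso_fold_test G hG n₂) ?_ ?_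
  · intro n q K v h
    rw [length_pre] at h
    by_cases hn : n < n₂ + K
    · rw [if_pos hn, hGspec K] at h
      have h2 := (Option.some.inj h).symm
      rw [h2, ← ext_pre _ _ n (by rw [length_pre]; exact hn)]
      apply hΨ K _ _ _ n hn
      intro i hi
      unfold app
      rw [length_pre, if_pos hi]
      exact (ext_pre X K i (by rw [length_pre]; exact hi)).symm
    · rw [if_neg hn] at h
      exact absurd h (by simp)
  · intro n
    refine ⟨0, n + 1, ?_⟩
    rw [length_pre, if_pos (by omega)]
    rfl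

section

variable (Φ : (ℕ → Bool) ≃ (ℕ → Bool))
  (hΦ : ∀ n X Y, Agree n X Y → Agree n (Φ X) (Φ Y))
  (hΦ' : ∀ n X Y, Agree n X Y → Agree n (Φ.symm X) (Φ.symm Y))
  (hT : ∀ A B : ℕ → Bool, TuringReducible (chi A) (chi B) ↔
    TuringReducible (chi (Φ A)) (chi (Φ B)))

include hΦ in
theorem iso_ext_of_agree {σ : List Bool} {P A : ℕ → Bool} (hP : Φ P = pad σ)
    (h : Agree σ.length A P) : Ext σ (Φ A) := by
  intro i hi
  have h1 := hΦ σ.length A P h i hi
  rw [h1, hP]
  rfl

include hΦ' in
theorem iso_base_agree (P : ℕ → Bool) (N : ℕ) (τ' : List Bool) :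
    Agree N (Φ.symm (pad (pre (Φ P) N ++ τ'))) P := by
  have h1 : Agree N (pad (pre (Φ P) N ++ τ')) (Φ P) := by
    intro i hi
    unfold pad
    rw [List.getD_append _ _ _ _ (by rw [length_pre]; exact hi)]
    exact (ext_pre (Φ P) N i (by rw [length_pre]; exact hi)).symm
  have h2 := hΦ' N _ _ h1
  rw [Equiv.symm_apply_apply] at h2
  exact h2

include hΦ hΦ' hT in
/-- Below some level `l₁` and base point `P`, any two finite strings of one length that agree
with `P` up to `l₁` are linked by a computable map on the finite parts of the images. -/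
theorem iso_cone : ∃ (l₁ : ℕ) (P : ℕ → Bool),
    ∀ b b' : List Bool, b.length = b'.length → l₁ ≤ b.length →
      Agree l₁ (pad b) P → Agree l₁ (pad b') P →
      ∃ c : List Bool → List Bool, Computable c ∧ ∀ (Y : ℕ → Bool) (k : ℕ),
        pre (Φ (app b' Y)) (b'.length + k) = c (pre (Φ (app b Y)) (b.length + k)) := by
  obtain ⟨β, γ, Mfin, hlen, hM, hMspec⟩ := iso_step_M Φ hΦ hΦ' hT
  obtain ⟨A₀, hA₀⟩ : ∃ A₀, Φ A₀ = pad β := ⟨Φ.symm (pad β), Φ.apply_symm_apply _⟩
  obtain ⟨D₀, hD₀c, hD₀⟩ : ∃ D₀, Computable D₀ ∧ Φ D₀ = pad γ :=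
    ⟨Φ.symm (pad γ), iso_pt_computable Φ.symm (iso_symm_hT Φ hT) (iso_computable_pad γ),
      Φ.apply_symm_apply _⟩
  -- the translation back
  obtain ⟨τV', Vfin, hV, hVspec⟩ :=
    iso_step_V Φ hΦ hΦ' hT D₀ hD₀c (pre (Φ (xr A₀ D₀)) β.length)
  obtain ⟨E₁, hE₁, hE₁a⟩ : ∃ E₁, Φ E₁ = pad (pre (Φ (xr A₀ D₀)) β.length ++ τV') ∧
      Agree β.length E₁ (xr A₀ D₀) :=
    ⟨_, Φ.apply_symm_apply _, iso_base_agree Φ hΦ' (xr A₀ D₀) β.length τV'⟩
  obtain ⟨l₁, hl₁⟩ : ∃ l₁, l₁ = (pre (Φ (xr A₀ D₀)) β.length ++ τV').length := ⟨_, rfl⟩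
  have hβl : β.length ≤ l₁ := by
    rw [hl₁, List.length_append, length_pre]
    omega
  -- the base point of the good cone
  have hA₁a : Agree β.length (xr E₁ D₀) A₀ := by
    have h := iso_agree_xr hE₁a (Agree.refl β.length D₀)
    rw [iso_xr_xr] at h
    exact h
  -- all nodes of one level in the cone are equivalent
  have hP4 : ∀ A A' : ℕ → Bool, Agree l₁ A (xr E₁ D₀) → Agree l₁ A' (xr E₁ D₀) → ∀ N, l₁ ≤ N →
      pre (Φ A') N = Vfin (Mfin (pre (Φ A) N, pre (Φ (xr (xr A A') D₀)) N)) := by
    intro A A' hA hA' N hN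
    have hβ : Ext β (Φ A) := iso_ext_of_agree Φ hΦ hA₀ ((hA.mono hβl).trans hA₁a)
    have hγ : Ext γ (Φ (xr (xr A A') D₀)) := by
      refine iso_ext_of_agree Φ hΦ hD₀ ?_
      intro i hi
      have hi' : i < l₁ := lt_of_lt_of_le (hlen ▸ hi) hβl
      simp [xr, hA i hi', hA' i hi']
    have hE : xr A (xr (xr A A') D₀) = xr A' D₀ := by
      funext i
      simp only [xr]
      cases A i <;> cases A' i <;> cases D₀ i <;> rfl
    have hEe : Ext (pre (Φ (xr A₀ D₀)) β.length ++ τV') (Φ (xr A' D₀)) := by
      refine iso_ext_of_agree Φ hΦ hE₁ ?_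
      rw [← hl₁]
      have h := iso_agree_xr hA' (Agree.refl l₁ D₀)
      rw [iso_xr_xr] at h
      exact h
    have h1 := hMspec A (xr (xr A A') D₀) N hβ hγ (le_trans hβl hN)
    have h2 := hVspec (xr A' D₀) N hEe (by rw [← hl₁]; exact hN)
    rw [iso_xr_xr] at h2
    rw [h2, ← hE, h1]
  have hRel : ∀ b b' : List Bool, b.length = b'.length → l₁ ≤ b.length →
      Agree l₁ (pad b) (xr E₁ D₀) → Agree l₁ (pad b') (xr E₁ D₀) →
      ∃ c : List Bool → List Bool, Computable c ∧ ∀ (Y : ℕ → Bool) (k : ℕ),
        pre (Φ (app b' Y)) (b'.length + k) = c (pre (Φ (app b Y)) (b.length + k)) := by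
    intro b b' hbb hlb hb hb'
    have hR : Computable (Φ (xr (xr (pad b) (pad b')) D₀)) :=
      iso_pt_computable Φ hT (iso_computable_xr
        (iso_computable_xr (iso_computable_pad b) (iso_computable_pad b')) hD₀c)
    refine ⟨fun t => Vfin (Mfin (t, pre (Φ (xr (xr (pad b) (pad b')) D₀)) t.length)),
      hV.comp (hM.comp (Computable.pair Computable.id
        ((iso_computable_pre hR).comp Computable.list_length))), ?_⟩
    intro Y k
    have hA : Agree l₁ (app b Y) (xr E₁ D₀) := ((iso_agree_app b Y).mono hlb).trans hb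
    have hA' : Agree l₁ (app b' Y) (xr E₁ D₀) :=
      ((iso_agree_app b' Y).mono (hbb ▸ hlb)).trans hb'
    have hD : xr (xr (app b Y) (app b' Y)) D₀ = xr (xr (pad b) (pad b')) D₀ := by
      funext i
      simp only [xr, app, pad]
      by_cases hi : i < b.length
      · rw [if_pos hi, if_pos (hbb ▸ hi)]
      · rw [if_neg hi, if_neg (hbb ▸ hi), List.getD_eq_default _ _ (Nat.le_of_not_lt hi),
          List.getD_eq_default _ _ (Nat.le_of_not_lt (hbb ▸ hi)), hbb]
        simp
    have h := hP4 (app b Y) (app b' Y) hA hA' (b.length + k) (le_trans hlb (Nat.le_add_right _ _))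
    rw [hD] at h
    show _ = Vfin (Mfin (_, pre _ (pre (Φ (app b Y)) (b.length + k)).length))
    rw [length_pre, ← h, hbb]
  exact ⟨l₁, xr E₁ D₀, hRel⟩

include hΦ hΦ' hT in
/-- Some finite string `a` such that the two maps `a Y ↦ a x Y` are conjugated to computable
maps on the finite parts of the images. -/
theorem iso_node : ∃ (a : List Bool) (c₀ c₁ : List Bool → List Bool),
    Computable c₀ ∧ Computable c₁ ∧
    (∀ (Y : ℕ → Bool) (k : ℕ), pre (Φ (app (a ++ [false]) Y)) (a.length + 1 + k) =
      c₀ (pre (Φ (app a Y)) (a.length + k))) ∧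
    (∀ (Y : ℕ → Bool) (k : ℕ), pre (Φ (app (a ++ [true]) Y)) (a.length + 1 + k) =
      c₁ (pre (Φ (app a Y)) (a.length + k))) := by
  obtain ⟨l₁, P, hRel⟩ := iso_cone Φ hΦ hΦ' hT
  -- the insertion
  obtain ⟨τW', Wfin, hW, hWspec⟩ :=
    iso_step_W Φ hΦ hΦ' hT l₁ (pre (Φ (P)) l₁)
  obtain ⟨A₂, hA₂, hA₂a⟩ : ∃ A₂, Φ A₂ = pad (pre (Φ (P)) l₁ ++ τW') ∧
      Agree l₁ A₂ (P) :=
    ⟨_, Φ.apply_symm_apply _, iso_base_agree Φ hΦ' (P) l₁ τW'⟩
  obtain ⟨n₂, hn₂⟩ : ∃ n₂, n₂ = (pre (Φ (P)) l₁ ++ τW').length := ⟨_, rfl⟩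
  have hln : l₁ ≤ n₂ := by
    rw [hn₂, List.length_append, length_pre]
    omega
  obtain ⟨a, ha⟩ : ∃ a, a = pre A₂ n₂ := ⟨_, rfl⟩
  have hal : a.length = n₂ := by rw [ha, length_pre]
  have haA : Agree n₂ (pad a) A₂ := by rw [ha]; exact iso_agree_pad_pre A₂ n₂
  obtain ⟨a', ha'⟩ : ∃ a', a' = pre (ins l₁ (pad a)) (n₂ + 1) := ⟨_, rfl⟩
  have ha'l : a'.length = n₂ + 1 := by rw [ha', length_pre]
  have ha'get : ∀ i, i < n₂ + 1 → a'.getD i false = ins l₁ (pad a) i := by
    intro i hi
    rw [ha']
    exact (ext_pre (ins l₁ (pad a)) (n₂ + 1) i (by rw [length_pre]; exact hi)).symm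
  have hins : ∀ Y : ℕ → Bool, ins l₁ (app a Y) = app a' Y := by
    intro Y
    funext i
    by_cases h1 : i < n₂ + 1
    · have e2 : app a' Y i = ins l₁ (pad a) i := by
        unfold app
        rw [if_pos (show i < a'.length by rw [ha'l]; exact h1)]
        exact ha'get i h1
      rw [e2]
      unfold ins
      by_cases h2 : i < l₁
      · rw [if_pos h2, if_pos h2]
        unfold app pad
        rw [if_pos (show i < a.length by rw [hal]; omega)]
      · rw [if_neg h2, if_neg h2]
        by_cases h3 : i = l₁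
        · rw [if_pos h3, if_pos h3]
        · rw [if_neg h3, if_neg h3]
          unfold app pad
          rw [if_pos (show i - 1 < a.length by rw [hal]; omega)]
    · have e2 : app a' Y i = Y (i - (n₂ + 1)) := by
        unfold app
        rw [if_neg (show ¬ i < a'.length by rw [ha'l]; exact h1), ha'l]
      rw [e2]
      unfold ins
      rw [if_neg (show ¬ i < l₁ by omega), if_neg (show ¬ i = l₁ by omega)]
      unfold app
      rw [if_neg (show ¬ i - 1 < a.length by rw [hal]; omega), hal]
      congr 1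
      omega
  have hP5 : ∀ (Y : ℕ → Bool) (k : ℕ),
      pre (Φ (app a' Y)) (n₂ + 1 + k) = Wfin (pre (Φ (app a Y)) (n₂ + k)) := by
    intro Y k
    have hExt : Ext (pre (Φ (P)) l₁ ++ τW') (Φ (app a Y)) := by
      refine iso_ext_of_agree Φ hΦ hA₂ ?_
      rw [← hn₂]
      have h := iso_agree_app a Y
      rw [hal] at h
      exact h.trans haA
    have h := hWspec (app a Y) (n₂ + k) hExt (by rw [← hn₂]; omega) (by omega)
    rw [hins] at h
    rw [← h]
    congr 1
    omega
  have hstep : ∀ x : Bool, ∃ c : List Bool → List Bool, Computable c ∧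
      ∀ (Y : ℕ → Bool) (k : ℕ),
        pre (Φ (app (a ++ [x]) Y)) (n₂ + 1 + k) = c (pre (Φ (app a Y)) (n₂ + k)) := by
    intro x
    have hb : Agree l₁ (pad a') (P) := by
      intro i hi
      have h1 : pad a' i = ins l₁ (pad a) i := ha'get i (by omega)
      rw [h1]
      simp only [ins]
      rw [if_pos hi, haA i (by omega)]
      exact hA₂a i hi
    have hb' : Agree l₁ (pad (a ++ [x])) (P) := by
      intro i hi
      have h1 : pad (a ++ [x]) i = pad a i := by
        unfold pad
        rw [List.getD_append _ _ _ _ (by omega)]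
      rw [h1, haA i (by omega)]
      exact hA₂a i hi
    obtain ⟨c, hc, hcs⟩ := hRel a' (a ++ [x]) (by rw [ha'l, List.length_append, hal]; rfl)
      (by rw [ha'l]; omega) hb hb'
    refine ⟨fun t => c (Wfin t), hc.comp hW, fun Y k => ?_⟩
    show pre (Φ (app (a ++ [x]) Y)) (n₂ + 1 + k) = c (Wfin (pre (Φ (app a Y)) (n₂ + k)))
    have h := hcs Y k
    rw [ha'l, List.length_append, hal] at h
    rw [← hP5 Y k]
    exact h
  obtain ⟨c₀, hc₀, hs₀⟩ := hstep false
  obtain ⟨c₁, hc₁, hs₁⟩ := hstep true
  refine ⟨a, c₀, c₁, hc₀, hc₁, ?_, ?_⟩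
  · intro Y k
    rw [hal]
    exact hs₀ Y k
  · intro Y k
    rw [hal]
    exact hs₁ Y k

include hΦ hΦ' hT in
/-- An isometry that preserves Turing reducibility in both directions is degree-decreasing. -/
theorem iso_decreasing (X : ℕ → Bool) : TuringReducible (chi (Φ X)) (chi X) := by
  obtain ⟨a, c₀, c₁, hc₀, hc₁, hs₀, hs₁⟩ := iso_node Φ hΦ hΦ' hT
  have hred : TuringReducible (chi (Φ (app a X))) (chi X) := by
    refine iso_fold (fun Y => Φ (app a Y)) a.length c₀ c₁ hc₀ hc₁ ?_ ?_ ?_ X
    · intro N Y Y' h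
      apply hΦ
      intro i hi
      unfold app
      by_cases h3 : i < a.length
      · rw [if_pos h3, if_pos h3]
      · rw [if_neg h3, if_neg h3]
        exact h _ (by omega)
    · intro Y k
      have h := hs₀ Y k
      rw [← iso_app_nil Y, ← iso_app_cons] at h
      rw [iso_app_nil] at h
      exact h
    · intro Y k
      have h := hs₁ Y k
      rw [← iso_app_nil Y, ← iso_app_cons] at h
      rw [iso_app_nil] at h
      exact h
  exact ((hT _ _).mp (iso_le_app a X)).trans hred

end

/-- Main theorem: a bijection of Cantor space that preserves agreement of initial segments in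
both directions and preserves Turing reducibility in both directions maps every set to a Turing
equivalent set. -/
theorem iso_main (Φ : (ℕ → Bool) ≃ (ℕ → Bool))
    (hiso : ∀ (n : ℕ) (X Y : ℕ → Bool),
      (∀ i, i < n → X i = Y i) ↔ (∀ i, i < n → Φ X i = Φ Y i))
    (hT : ∀ A B : ℕ → Bool, TuringReducible (chi A) (chi B) ↔
      TuringReducible (chi (Φ A)) (chi (Φ B))) :
    ∀ A : ℕ → Bool, TuringEquivalent (chi (Φ A)) (chi A) := by
  have hΦ : ∀ n X Y, Agree n X Y → Agree n (Φ X) (Φ Y) := fun n X Y h => (hiso n X Y).mp h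
  have hΦ' : ∀ n X Y, Agree n X Y → Agree n (Φ.symm X) (Φ.symm Y) := fun n X Y h =>
    (hiso n (Φ.symm X) (Φ.symm Y)).mpr (by
      rw [Equiv.apply_symm_apply, Equiv.apply_symm_apply]
      exact h)
  intro A
  refine ⟨iso_decreasing Φ hΦ hΦ' hT A, ?_⟩
  have h := iso_decreasing Φ.symm hΦ' hΦ (iso_symm_hT Φ hT) (Φ A)
  rw [Equiv.symm_apply_apply] at h
  exact h

end Vale.Agent.H88
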