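import Vale.Agent.H88.Iso.UL

/-!
# Isometries of Cantor space inducing a degree automorphism: three uniformisations

For an isometry `Φ` of Cantor space that preserves Turing reducibility in both directions:
the transported group law, the conjugate of a computable translation and the conjugate of the
insertion of a value are given by computable functions on finite strings below suitable
finite strings.
-/

namespace Vale.Agent.H88

section

variable (Φ : (ℕ → Bool) ≃ (ℕ → Bool))
  (hΦ : ∀ n X Y, Agree n X Y → Agree n (Φ X) (Φ Y))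
  (hΦ' : ∀ n X Y, Agree n X Y → Agree n (Φ.symm X) (Φ.symm Y))
  (hT : ∀ A B : ℕ → Bool, TuringReducible (chi A) (chi B) ↔
    TuringReducible (chi (Φ A)) (chi (Φ B)))

include hT in
/-- The image of a computable set is computable. -/
theorem iso_pt_computable {C : ℕ → Bool} (hC : Computable C) : Computable (Φ C) := by
  have h1 : TuringReducible (chi C) (chi (Φ.symm (fun _ => false))) :=
    iso_le_of_computable hC _
  have h2 := (hT _ _).mp h1
  rw [Equiv.apply_symm_apply] at h2
  exact computable_of_reducible (Computable.const false) h2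

include hT in
/-- The inverse also preserves Turing reducibility in both directions. -/
theorem iso_symm_hT (A B : ℕ → Bool) : TuringReducible (chi A) (chi B) ↔
    TuringReducible (chi (Φ.symm A)) (chi (Φ.symm B)) := by
  have h := hT (Φ.symm A) (Φ.symm B)
  rw [Equiv.apply_symm_apply, Equiv.apply_symm_apply] at h
  exact h.symm

include hT in
theorem iso_M_le (B C : ℕ → Bool) :
    TuringReducible (chi (Φ (xr (Φ.symm B) (Φ.symm C)))) (chi (join B C)) := by
  have h1 := (hT _ _).mp (xor_le_join (Φ.symm B) (Φ.symm C))
  have hB : TuringReducible (chi (Φ.symm B)) (chi (Φ.symm (join B C))) :=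
    (iso_symm_hT Φ hT _ _).mp (left_le_join B C)
  have hC : TuringReducible (chi (Φ.symm C)) (chi (Φ.symm (join B C))) :=
    (iso_symm_hT Φ hT _ _).mp (right_le_join B C)
  have h2 := (hT _ _).mp (join_le hB hC)
  rw [Equiv.apply_symm_apply] at h2
  exact h1.trans h2

include hΦ hΦ' hT in
/-- The transported group law is computable on finite strings below two finite strings. -/
theorem iso_step_M : ∃ (β γ : List Bool) (Mfin : List Bool × List Bool → List Bool),
    β.length = γ.length ∧ Computable Mfin ∧
    ∀ (A D : ℕ → Bool) (N : ℕ), Ext β (Φ A) → Ext γ (Φ D) → β.length ≤ N →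
      pre (Φ (xr A D)) N = Mfin (pre (Φ A) N, pre (Φ D) N) := by
  obtain ⟨τ, Ffin, hF, hspec⟩ := iso_ul_list
    (fun J => Φ (xr (Φ.symm (fun n => J (2 * n))) (Φ.symm (fun n => J (2 * n + 1)))))
    (fun n => 2 * (n + 1))
    ((Primrec.nat_mul.comp (Primrec.const 2) Primrec.succ).to_comp)
    (fun n J J' hJ => hΦ (n + 1) _ _
      (iso_agree_xr (hΦ' (n + 1) _ _ (fun i hi => hJ (2 * i) (by omega)))
        (hΦ' (n + 1) _ _ (fun i hi => hJ (2 * i + 1) (by omega)))) n (Nat.lt_succ_self n))
    (fun J => by
      have h := iso_M_le Φ hT (fun n => J (2 * n)) (fun n => J (2 * n + 1))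
      have hj : join (fun n => J (2 * n)) (fun n => J (2 * n + 1)) = J := by
        funext n
        unfold join
        split_ifs with hn
        · show J (2 * (n / 2)) = J n
          rw [show 2 * (n / 2) = n by omega]
        · show J (2 * (n / 2) + 1) = J n
          rw [show 2 * (n / 2) + 1 = n by omega]
      rw [hj] at h
      exact h)
    [] (fun N => N / 2)
    ((Primrec.nat_div.comp Primrec.id (Primrec.const 2)).to_comp)
  rw [List.nil_append] at hspec
  refine ⟨pre (fun n => pad τ (2 * n)) τ.length, pre (fun n => pad τ (2 * n + 1)) τ.length,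
    fun p => Ffin (genjoinZeta p.1 p.2), by rw [length_pre, length_pre],
    hF.comp genjoin_primrec_zeta.to_comp, ?_⟩
  intro A D N hA hD hN
  rw [length_pre] at hN
  have hext : Ext τ (join (Φ A) (Φ D)) := by
    intro i hi
    have h2 : i / 2 < τ.length := by omega
    unfold join
    split_ifs with hpar
    · rw [hA (i / 2) (by rw [length_pre]; exact h2),
        ← ext_pre (fun n => pad τ (2 * n)) τ.length (i / 2) (by rw [length_pre]; exact h2)]
      show τ.getD (2 * (i / 2)) false = τ.getD i false
      congr 1; omega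
    · rw [hD (i / 2) (by rw [length_pre]; exact h2),
        ← ext_pre (fun n => pad τ (2 * n + 1)) τ.length (i / 2) (by rw [length_pre]; exact h2)]
      show τ.getD (2 * (i / 2) + 1) false = τ.getD i false
      congr 1; omega
  have h := hspec (2 * N) (join (Φ A) (Φ D)) hext (by omega) (fun n hn => by omega)
  have e1 : 2 * N / 2 = N := by omega
  rw [e1, ← genjoin_zeta_pre] at h
  show pre (Φ (xr A D)) N = Ffin (genjoinZeta (pre (Φ A) N) (pre (Φ D) N))
  rw [← h]
  congr 2
  have ea : (fun n => join (Φ A) (Φ D) (2 * n)) = Φ A := funext fun n => join_even _ _ n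
  have ed : (fun n => join (Φ A) (Φ D) (2 * n + 1)) = Φ D := funext fun n => join_odd _ _ n
  rw [ea, ed, Equiv.symm_apply_apply, Equiv.symm_apply_apply]

include hΦ hΦ' hT in
/-- The conjugate of the translation by a computable set is computable on finite strings
below a finite string extending `η`. -/
theorem iso_step_V (D₀ : ℕ → Bool) (hD₀ : Computable D₀) (η : List Bool) :
    ∃ (τ' : List Bool) (Vfin : List Bool → List Bool), Computable Vfin ∧
    ∀ (E : ℕ → Bool) (N : ℕ), Ext (η ++ τ') (Φ E) → (η ++ τ').length ≤ N →
      pre (Φ (xr E D₀)) N = Vfin (pre (Φ E) N) := by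
  obtain ⟨τ', Vfin, hV, hspec⟩ := iso_ul_list
    (fun B => Φ (xr (Φ.symm B) D₀)) (fun n => n + 1) Computable.succ
    (fun n B B' hB => hΦ (n + 1) _ _
      (iso_agree_xr (hΦ' (n + 1) _ _ hB) (Agree.refl _ _)) n (Nat.lt_succ_self n))
    (fun B => by
      have h := (hT _ _).mp (turingReducible_xor hD₀ (Φ.symm B))
      rw [Equiv.apply_symm_apply] at h
      exact h)
    η (fun N => N) Computable.id
  refine ⟨τ', Vfin, hV, fun E N hE hN => ?_⟩
  have h := hspec N (Φ E) hE hN (fun n hn => hn)
  rw [← h, Equiv.symm_apply_apply]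

include hΦ hΦ' hT in
/-- The conjugate of the insertion of a value at position `l` is computable on finite strings
below a finite string extending `η`. -/
theorem iso_step_W (l : ℕ) (η : List Bool) :
    ∃ (τ' : List Bool) (Wfin : List Bool → List Bool), Computable Wfin ∧
    ∀ (A : ℕ → Bool) (N : ℕ), Ext (η ++ τ') (Φ A) → (η ++ τ').length ≤ N → l ≤ N →
      pre (Φ (ins l A)) (N + 1) = Wfin (pre (Φ A) N) := by
  obtain ⟨τ', Wfin, hW, hspec⟩ := iso_ul_list
    (fun B => Φ (ins l (Φ.symm B))) (fun n => max n l)
    ((Primrec.nat_max.comp Primrec.id (Primrec.const l)).to_comp)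
    (fun n B B' hB => hΦ (max n l + 1) _ _ (iso_agree_ins (hΦ' (max n l) _ _ hB)) n
      (Nat.lt_succ_of_le (le_max_left n l)))
    (fun B => by
      have h := (hT _ _).mp (iso_ins_le l (Φ.symm B))
      rw [Equiv.apply_symm_apply] at h
      exact h)
    η (fun N => N + 1) Computable.succ
  refine ⟨τ', Wfin, hW, fun A N hA hN hl => ?_⟩
  have h := hspec N (Φ A) hA hN (fun n hn => by
    have : n ≤ N := Nat.lt_succ_iff.mp hn
    exact max_le this hl)
  rw [← h, Equiv.symm_apply_apply]

end

end Vale.Agent.H88
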