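import Vale.Agent.H88.Iso.Basic

/-!
# Uniformisation of degree-decreasing maps with a computable modulus

If `F A` is computable from `A` for every `A`, and the value `F A n` depends only on the first
`m n` values of `A` for a computable `m`, then below some finite string the finite parts of `F`
are given by a computable function on finite strings (Baire category plus unbounded search).
-/

namespace Vale.Agent.H88

open Nat.Partrec (Code)

theorem iso_ul (F : (ℕ → Bool) → (ℕ → Bool)) (m : ℕ → ℕ) (hm : Computable m)
    (hmod : ∀ n A B, Agree (m n) A B → F A n = F B n)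
    (h : ∀ A, TuringReducible (chi (F A)) (chi A)) :
    ∃ (τ : List Bool) (g : List Bool × ℕ → Bool), Computable g ∧
      ∀ (ξ : List Bool) (n : ℕ) (X : ℕ → Bool), Ext (τ ++ ξ) X → m n ≤ (τ ++ ξ).length →
        g (ξ, n) = F X n := by
  obtain ⟨c, τ, hs, hd⟩ := baire_package F (fun n => ⟨m n, fun A B hAB => hmod n A B hAB⟩) h
  have hT : Primrec (fun x : ℕ × (List Bool × ℕ) × (ℕ × List Bool) =>
      if x.1 ≤ (τ ++ x.2.1.1).length then
        (Code.evaln x.2.2.1 (prog c (τ ++ x.2.1.1 ++ x.2.2.2)) x.2.1.2).map (fun v => v == 1)
      else some false) :=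
    Primrec.ite
      (Primrec.nat_le.comp Primrec.fst (Primrec.list_length.comp (Primrec.list_append.comp
        (Primrec.const τ) (Primrec.fst.comp (Primrec.fst.comp Primrec.snd)))))
      (Primrec.option_map
        (primrec_cert c (Primrec.fst.comp (Primrec.snd.comp Primrec.snd))
          (Primrec.list_append.comp (Primrec.list_append.comp (Primrec.const τ)
            (Primrec.fst.comp (Primrec.fst.comp Primrec.snd)))
            (Primrec.snd.comp (Primrec.snd.comp Primrec.snd)))
          (Primrec.snd.comp (Primrec.fst.comp Primrec.snd)))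
        (Primrec.beq.comp Primrec.snd (Primrec.const 1)).to₂)
      (Primrec.const (some false))
  have ht : Computable₂ (fun (a : List Bool × ℕ) (q : ℕ × List Bool) =>
      if m a.2 ≤ (τ ++ a.1).length then
        (Code.evaln q.1 (prog c (τ ++ a.1 ++ q.2)) a.2).map (fun v => v == 1)
      else some false) :=
    hT.to_comp.comp (Computable.pair (hm.comp (Computable.snd.comp Computable.fst))
      Computable.id)
  refine ⟨τ, fun a => if m a.2 ≤ (τ ++ a.1).length then F (pad (τ ++ a.1)) a.2
    else false, computable_of_search ht ?_ ?_, ?_⟩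
  · rintro ⟨ξ, n⟩
    by_cases hc : m n ≤ (τ ++ ξ).length
    · obtain ⟨ρ, k, v, hv⟩ := hd ξ n
      refine ⟨(k, ρ), v == 1, ?_⟩
      dsimp only
      rw [if_pos hc, hv]
      rfl
    · refine ⟨(0, []), false, ?_⟩
      dsimp only
      rw [if_neg hc]
  · rintro ⟨ξ, n⟩ ⟨k, ρ⟩ v hv
    dsimp only at hv ⊢
    by_cases hc : m n ≤ (τ ++ ξ).length
    · rw [if_pos hc] at hv ⊢
      obtain ⟨w, hw, rfl⟩ := Option.map_eq_some_iff.mp hv
      have h1 := hs (ξ ++ ρ) k n w (by rw [← List.append_assoc]; exact hw)
        (pad (τ ++ (ξ ++ ρ))) (ext_pad _)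
      have h2 : F (pad (τ ++ (ξ ++ ρ))) n = F (pad (τ ++ ξ)) n := by
        apply hmod
        intro i hi
        unfold pad
        rw [← List.append_assoc, List.getD_append _ _ _ _ (lt_of_lt_of_le hi hc)]
      rw [h1, h2]
      cases F (pad (τ ++ ξ)) n <;> rfl
    · rw [if_neg hc] at hv ⊢
      exact (Option.some.inj hv).symm
  · intro ξ n X hX hmn
    dsimp only
    rw [if_pos hmn]
    exact hmod n _ _ fun i hi => (hX i (lt_of_lt_of_le hi hmn)).symm

/-- The list form of the uniformisation lemma, below a prescribed finite string `η`. -/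
theorem iso_ul_list (F : (ℕ → Bool) → (ℕ → Bool)) (m : ℕ → ℕ) (hm : Computable m)
    (hmod : ∀ n A B, Agree (m n) A B → F A n = F B n)
    (h : ∀ A, TuringReducible (chi (F A)) (chi A)) (η : List Bool) (K : ℕ → ℕ)
    (hK : Computable K) :
    ∃ (τ' : List Bool) (Ffin : List Bool → List Bool), Computable Ffin ∧
      ∀ (N : ℕ) (B : ℕ → Bool), Ext (η ++ τ') B → (η ++ τ').length ≤ N →
        (∀ n, n < K N → m n ≤ N) → pre (F B) (K N) = Ffin (pre B N) := by
  obtain ⟨τ', g, hg, hspec⟩ := iso_ul (fun X => F (app η X)) (fun n => m n - η.length)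
    (Primrec.nat_sub.to_comp.comp hm (Computable.const η.length))
    (fun n A B hAB => hmod n _ _ (fun i hi => by
      unfold app
      split_ifs with h1
      · rfl
      · exact hAB (i - η.length) (by omega)))
    (fun A => (h (app η A)).trans (iso_app_le η A))
  refine ⟨τ', fun t => (List.range (K t.length)).map
    (fun n => g (t.drop (η ++ τ').length, n)), ?_, ?_⟩
  · exact iso_computable_map_range (g := fun p : List Bool × ℕ => g (p.1.drop (η ++ τ').length, p.2))
      (hg.comp (Computable.pair
        ((Primrec.list_drop.comp (Primrec.const (η ++ τ').length) Primrec.fst).to_comp)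
        Computable.snd))
      (K := fun t : List Bool => K t.length) (hK.comp Computable.list_length)
  · intro N B hB hN hKN
    show (List.range (K N)).map (F B) = (List.range (K (pre B N).length)).map
      (fun n => g ((pre B N).drop (η ++ τ').length, n))
    rw [length_pre]
    apply List.map_congr_left
    intro n hn
    have hn' := List.mem_range.mp hn
    obtain ⟨ξ, hξ⟩ := pre_eq_append hB hN
    have hlen : N = η.length + τ'.length + ξ.length := by
      have h1 := congrArg List.length hξ
      rw [length_pre] at h1
      simp only [List.length_append] at h1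
      omega
    rw [hξ, List.drop_left]
    have hX : Ext (τ' ++ ξ) (fun i => B (i + η.length)) := by
      intro i hi
      have hi' : i + η.length < (pre B N).length := by
        rw [length_pre, hlen]
        simp only [List.length_append] at hi
        omega
      have h1 := ext_pre B N (i + η.length) hi'
      show B (i + η.length) = _
      rw [h1, hξ, List.append_assoc, List.getD_append_right _ _ _ _ (Nat.le_add_left _ _),
        Nat.add_sub_cancel]
    have h2 := hspec ξ n (fun i => B (i + η.length)) hX (by
      have := hKN n hn'
      simp only [List.length_append]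
      omega)
    rw [h2]
    show F B n = F (app η (fun i => B (i + η.length))) n
    rw [iso_app_shift (Ext.of_append hB)]

end Vale.Agent.H88
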